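import Vale.Agent.Lib.P329.H26.Nilp3

open Vale.Agent.Lib.P329.H26

/-- Every language over a finite alphabet that is recognized by a finite nilpotent group of
class at most three has generalized star height at most one. -/
theorem Vale.Agent.Results.P329.A_class3.result
    {α : Type*} [Finite α] {G : Type*} [Group G] [Finite G] [Group.IsNilpotent G]
    (hG : Group.nilpotencyClass G ≤ 3) (φ : FreeMonoid α →* G) (L : Set (List α))
    (hL : ∀ u v : List α, φ (FreeMonoid.ofList u) = φ (FreeMonoid.ofList v) → (u ∈ L ↔ v ∈ L)) :
    GSH 1 L := by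
  classical
  have hG' : Γ G 3 = ⊥ := Subgroup.lowerCentralSeries_eq_bot_iff_nilpotencyClass_le.mpr hG
  let f : List α → G := fun w => φ (FreeMonoid.ofList w)
  have hk : Known f := by
    apply known_of_class_three hG' (fun a => φ (FreeMonoid.of a)) f
    · simp [f]
    · intro w a
      simp only [f, FreeMonoid.ofList_append, map_mul]
      rfl
  have := hk.preimage {g | ∃ u ∈ L, f u = g}
  refine this.congr fun w => ?_
  constructor
  · rintro ⟨u, hu, h⟩
    exact (hL u w h).mp hu
  · intro hw
    exact ⟨w, hw, rfl⟩
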