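import Vale.Agent.Lib.P329.ExpTwo

open Vale.Agent.Lib.P329

/-- Let `G` be a finite group with an abelian normal subgroup `A` such that `t ^ 2 ∈ A` for all
`t : G`. Then every language over a finite alphabet recognized by `G` is denoted by a generalized
regular expression of star height at most one. This applies to all dihedral groups, all groups
with an abelian subgroup of index two, all generalized quaternion and semidihedral groups. -/
theorem Vale.Agent.Results.P329.AbelianByExponentTwo.result
    {α : Type*} {G : Type*} [Finite α] [Group G] [Finite G]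
    (A : Subgroup G) [A.Normal] (hAA : ∀ a ∈ A, ∀ b ∈ A, a * b = b * a)
    (hsq : ∀ t : G, t ^ 2 ∈ A) (φ : FreeMonoid α →* G) (T : Set G) :
    ∃ e : GRE α, e.sh ≤ 1 ∧ ∀ w : List α, w ∈ e.lang ↔ φ (FreeMonoid.ofList w) ∈ T :=
  abelian_by_exp_two A hAA hsq φ T
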