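import Vale.Agent.Lib.P329.Class3

open Vale.Agent.Lib.P329

/-- Every language recognized by a finite nilpotent group of class at most three, over a finite
alphabet, is denoted by a generalized regular expression of star height at most one. The hypothesis
on `G` says that `[[[G, G], G], G]` is trivial. -/
theorem Vale.Agent.Results.P329.NilpotentClassThree.result
    {α : Type*} {G : Type*} [Finite α] [Group G] [Finite G]
    (hG : (⊤ : Subgroup G).lowerCentralSeries 3 = ⊥) (φ : FreeMonoid α →* G) (T : Set G) :
    ∃ e : GRE α, e.sh ≤ 1 ∧ ∀ w : List α, w ∈ e.lang ↔ φ (FreeMonoid.ofList w) ∈ T :=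
  class_three hG φ T
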